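import Vale.Agent.P131.Transfer

namespace Vale.Agent.Results.P131.Counterexample

theorem result (H : Type*) [NormedAddCommGroup H] [InnerProductSpace ℂ H] [CompleteSpace H]
    [TopologicalSpace.SeparableSpace H] (hH : ¬FiniteDimensional ℂ H) :
    ∃ T : H →L[ℂ] H, (∀ z : ℂ, T ≠ z • ContinuousLinearMap.id ℂ H) ∧
      ∀ M : Submodule ℂ H, IsClosed (M : Set H) →
        (∀ A : H →L[ℂ] H, A.comp T = T.comp A → ∀ x ∈ M, A x ∈ M) → M = ⊥ ∨ M = ⊤ :=
  Vale.Agent.P131.transfer H hH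

end Vale.Agent.Results.P131.Counterexample
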